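import Mathlib

/-!
# S0112, package A6: the continuous-time mean ergodic theorem (elementary)

`U : ℝ → H →L[ℂ] H` is a strongly continuous one-parameter group of isometries.  The window
averages `(2k)⁻¹ ∫_{-k}^{k} U t y dt` converge in norm to the projection of `y` on the fixed
space; the projection is described by its characteristic property (`p` fixed, `y - p` orthogonal
to all fixed vectors).  Mathlib only.
-/

set_option autoImplicit false
set_option linter.unusedSectionVars false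

open Filter Topology MeasureTheory
open scoped InnerProductSpace

namespace Crest.Agent.Helper79.S0112

variable {H : Type*} [NormedAddCommGroup H] [InnerProductSpace ℂ H] [CompleteSpace H]

/-- The window average `(2k)⁻¹ ∫_{-k}^{k} U t y dt` of an orbit. -/
noncomputable def orbAvg (U : ℝ → H →L[ℂ] H) (k : ℕ) (y : H) : H :=
  ((2 * (k : ℝ))⁻¹ : ℝ) • ∫ t in (-(k : ℝ))..(k : ℝ), U t y

theorem orbAvg_def (U : ℝ → H →L[ℂ] H) (k : ℕ) (y : H) :
    orbAvg U k y = ((2 * (k : ℝ))⁻¹ : ℝ) • ∫ t in (-(k : ℝ))..(k : ℝ), U t y := rfl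

theorem orbAvg_norm_le (U : ℝ → H →L[ℂ] H) (hiso : ∀ t x, ‖U t x‖ = ‖x‖) (k : ℕ) (y : H) :
    ‖orbAvg U k y‖ ≤ ‖y‖ := by
  unfold orbAvg
  rw [norm_smul]
  have h1 : ‖∫ t in (-(k : ℝ))..(k : ℝ), U t y‖ ≤ ‖y‖ * |(k : ℝ) - (-(k : ℝ))| :=
    intervalIntegral.norm_integral_le_of_norm_le_const (fun t _ => (hiso t y).le)
  rcases Nat.eq_zero_or_pos k with rfl | hk
  · simp
  · have hk' : (0 : ℝ) < k := by exact_mod_cast hk
    have h2 : |(k : ℝ) - (-(k : ℝ))| = 2 * k := by
      rw [abs_of_nonneg] <;> linarith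
    rw [h2] at h1
    rw [Real.norm_eq_abs, abs_of_pos (by positivity)]
    calc (2 * (k : ℝ))⁻¹ * ‖∫ t in (-(k : ℝ))..(k : ℝ), U t y‖
        ≤ (2 * (k : ℝ))⁻¹ * (‖y‖ * (2 * k)) := by gcongr
      _ = ‖y‖ := by field_simp

theorem orbAvg_add (U : ℝ → H →L[ℂ] H) (hcont : ∀ x, Continuous fun t => U t x) (k : ℕ)
    (y z : H) : orbAvg U k (y + z) = orbAvg U k y + orbAvg U k z := by
  unfold orbAvg
  rw [← smul_add, ← intervalIntegral.integral_add ((hcont y).intervalIntegrable _ _)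
    ((hcont z).intervalIntegrable _ _)]
  simp only [map_add]

theorem orbAvg_smul (U : ℝ → H →L[ℂ] H) (k : ℕ) (c : ℂ) (y : H) :
    orbAvg U k (c • y) = c • orbAvg U k y := by
  unfold orbAvg
  simp only [map_smul]
  rw [intervalIntegral.integral_smul, smul_comm]

theorem orbAvg_zero (U : ℝ → H →L[ℂ] H) (k : ℕ) : orbAvg U k 0 = 0 := by
  unfold orbAvg
  simp

theorem orbAvg_sub (U : ℝ → H →L[ℂ] H) (hcont : ∀ x, Continuous fun t => U t x) (k : ℕ)
    (y z : H) : orbAvg U k (y - z) = orbAvg U k y - orbAvg U k z := by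
  have h := orbAvg_add U hcont k (y - z) z
  rw [sub_add_cancel] at h
  rw [h, add_sub_cancel_right]

/-- The window average of a fixed vector is the vector (for `k ≥ 1`). -/
theorem orbAvg_fixed (U : ℝ → H →L[ℂ] H) {p : H} (hp : ∀ t, U t p = p) {k : ℕ} (hk : 1 ≤ k) :
    orbAvg U k p = p := by
  unfold orbAvg
  simp only [hp, intervalIntegral.integral_const]
  have hk' : (0 : ℝ) < k := by exact_mod_cast hk
  rw [smul_smul]
  have : (2 * (k : ℝ))⁻¹ * ((k : ℝ) - (-(k : ℝ))) = 1 := by field_simp; ring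
  rw [this, one_smul]

/-- Key estimate: the window average of a coboundary `U r z - z` is `O(1/k)`. -/
theorem orbAvg_coboundary_norm_le (U : ℝ → H →L[ℂ] H)
    (hadd : ∀ s t, U (s + t) = U s * U t) (hiso : ∀ t x, ‖U t x‖ = ‖x‖)
    (hcont : ∀ x, Continuous fun t => U t x) (k : ℕ) (r : ℝ) (z : H) :
    ‖orbAvg U k (U r z - z)‖ ≤ |r| * ‖z‖ / k := by
  rcases Nat.eq_zero_or_pos k with rfl | hk
  · unfold orbAvg; simp
  have hk' : (0 : ℝ) < k := by exact_mod_cast hk
  have hint : ∀ a b : ℝ, IntervalIntegrable (fun t => U t z) volume a b :=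
    fun a b => (hcont z).intervalIntegrable a b
  have h1 : (∫ t in (-(k : ℝ))..(k : ℝ), U t (U r z)) =
      ∫ t in (-(k : ℝ) + r)..((k : ℝ) + r), U t z := by
    rw [← intervalIntegral.integral_comp_add_right (fun t => U t z) r]
    congr 1
    funext t
    rw [hadd t r]; rfl
  have h2 : orbAvg U k (U r z - z) = ((2 * (k : ℝ))⁻¹ : ℝ) •
      ((∫ t in (-(k : ℝ) + r)..(-(k : ℝ)), U t z) - ∫ t in ((k : ℝ) + r)..(k : ℝ), U t z) := by
    rw [orbAvg_sub U hcont]
    unfold orbAvg
    rw [← smul_sub, h1,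
      intervalIntegral.integral_interval_sub_interval_comm (hint _ _) (hint _ _) (hint _ _)]
  rw [h2, norm_smul, Real.norm_eq_abs, abs_of_pos (by positivity)]
  have h3 : ‖∫ t in (-(k : ℝ) + r)..(-(k : ℝ)), U t z‖ ≤ ‖z‖ * |(-(k : ℝ)) - (-(k : ℝ) + r)| :=
    intervalIntegral.norm_integral_le_of_norm_le_const (fun t _ => (hiso t z).le)
  have h4 : ‖∫ t in ((k : ℝ) + r)..(k : ℝ), U t z‖ ≤ ‖z‖ * |(k : ℝ) - ((k : ℝ) + r)| :=
    intervalIntegral.norm_integral_le_of_norm_le_const (fun t _ => (hiso t z).le)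
  have e3 : |(-(k : ℝ)) - (-(k : ℝ) + r)| = |r| := by
    rw [show (-(k : ℝ)) - (-(k : ℝ) + r) = -r by ring, abs_neg]
  have e4 : |(k : ℝ) - ((k : ℝ) + r)| = |r| := by
    rw [show (k : ℝ) - ((k : ℝ) + r) = -r by ring, abs_neg]
  rw [e3] at h3
  rw [e4] at h4
  calc (2 * (k : ℝ))⁻¹ * ‖(∫ t in (-(k : ℝ) + r)..(-(k : ℝ)), U t z) -
        ∫ t in ((k : ℝ) + r)..(k : ℝ), U t z‖
      ≤ (2 * (k : ℝ))⁻¹ * (‖z‖ * |r| + ‖z‖ * |r|) := by
        gcongr
        exact (norm_sub_le _ _).trans (add_le_add h3 h4)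
    _ = |r| * ‖z‖ / k := by field_simp; ring

/-- The vectors whose window averages tend to `0`, as a submodule. -/
noncomputable def avgNull (U : ℝ → H →L[ℂ] H) (hcont : ∀ x, Continuous fun t => U t x) :
    Submodule ℂ H where
  carrier := {q | Tendsto (fun k : ℕ => orbAvg U k q) atTop (𝓝 0)}
  add_mem' := by
    intro a b ha hb
    have := Tendsto.add ha hb
    simp only [add_zero] at this
    simpa only [Set.mem_ofPred_eq, orbAvg_add U hcont] using this
  zero_mem' := by
    simp only [Set.mem_ofPred_eq, orbAvg_zero]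
    exact tendsto_const_nhds
  smul_mem' := by
    intro c a ha
    have := Tendsto.const_smul ha c
    simp only [smul_zero] at this
    simpa only [Set.mem_ofPred_eq, orbAvg_smul] using this

theorem mem_avgNull (U : ℝ → H →L[ℂ] H) (hcont : ∀ x, Continuous fun t => U t x) (q : H) :
    q ∈ avgNull U hcont ↔ Tendsto (fun k : ℕ => orbAvg U k q) atTop (𝓝 0) := Iff.rfl

theorem isClosed_avgNull (U : ℝ → H →L[ℂ] H) (hiso : ∀ t x, ‖U t x‖ = ‖x‖)
    (hcont : ∀ x, Continuous fun t => U t x) : IsClosed (avgNull U hcont : Set H) := by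
  refine isClosed_of_closure_subset fun q hq => ?_
  rw [SetLike.mem_coe, mem_avgNull, Metric.tendsto_atTop]
  intro ε hε
  obtain ⟨q', hq', hd⟩ := Metric.mem_closure_iff.1 hq (ε / 2) (by linarith)
  rw [SetLike.mem_coe, mem_avgNull, Metric.tendsto_atTop] at hq'
  obtain ⟨N, hN⟩ := hq' (ε / 2) (by linarith)
  refine ⟨N, fun k hk => ?_⟩
  have h1 := hN k hk
  rw [dist_zero_right] at h1 ⊢
  have h2 : orbAvg U k q = orbAvg U k (q - q') + orbAvg U k q' := by
    rw [orbAvg_sub U hcont, sub_add_cancel]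
  have h3 : ‖orbAvg U k (q - q')‖ ≤ ‖q - q'‖ := orbAvg_norm_le U hiso k _
  rw [dist_eq_norm] at hd
  calc ‖orbAvg U k q‖ ≤ ‖orbAvg U k (q - q')‖ + ‖orbAvg U k q'‖ := by
        rw [h2]; exact norm_add_le _ _
    _ < ε := by linarith

/-- **Mean ergodic theorem, continuous time.**  If `p` is fixed by the group and `y - p` is
orthogonal to every fixed vector, the window averages of the orbit of `y` tend to `p`. -/
theorem mean_ergodic (U : ℝ → H →L[ℂ] H)
    (hadd : ∀ s t, U (s + t) = U s * U t) (hiso : ∀ t x, ‖U t x‖ = ‖x‖)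
    (hcont : ∀ x, Continuous fun t => U t x) (y p : H) (hp : ∀ t, U t p = p)
    (hperp : ∀ z, (∀ t, U t z = z) → ⟪z, y - p⟫_ℂ = 0) :
    Tendsto (fun k : ℕ => ((2 * (k : ℝ))⁻¹ : ℝ) • ∫ t in (-(k : ℝ))..(k : ℝ), U t y) atTop
      (𝓝 p) := by
  -- the span of the coboundaries
  set W : Submodule ℂ H := Submodule.span ℂ {q | ∃ (r : ℝ) (z : H), q = U r z - z} with hW
  -- coboundaries are averaged to zero
  have hgen : W ≤ avgNull U hcont := by
    refine Submodule.span_le.2 ?_
    rintro q ⟨r, z, rfl⟩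
    rw [SetLike.mem_coe, mem_avgNull]
    refine squeeze_zero_norm (fun k => orbAvg_coboundary_norm_le U hadd hiso hcont k r z) ?_
    exact tendsto_const_div_atTop_nhds_zero_nat _
  -- the orthogonal complement of the coboundaries consists of fixed vectors
  have hfix : ∀ x ∈ Wᗮ, ∀ t, U t x = x := by
    intro x hx t
    have h1 : ⟪U t x - x, x⟫_ℂ = 0 :=
      (Submodule.mem_orthogonal W x).1 hx _ (Submodule.subset_span ⟨t, x, rfl⟩)
    have h2 : ⟪U t x, x⟫_ℂ = ⟪x, x⟫_ℂ := by
      rw [inner_sub_left] at h1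
      exact sub_eq_zero.1 h1
    have h3 : ‖U t x - x‖ ^ 2 = 0 := by
      rw [@norm_sub_sq ℂ, h2, hiso t x, inner_self_eq_norm_sq]
      ring
    have h4 : ‖U t x - x‖ = 0 := by
      exact pow_eq_zero_iff (two_ne_zero) |>.1 h3
    exact sub_eq_zero.1 (norm_eq_zero.1 h4)
  -- hence `y - p` lies in the closure of the coboundaries
  have hmem : y - p ∈ avgNull U hcont := by
    have h1 : y - p ∈ Wᗮᗮ := by
      rw [Submodule.mem_orthogonal]
      intro x hx
      exact hperp x (hfix x hx)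
    rw [Submodule.orthogonal_orthogonal_eq_closure] at h1
    exact Submodule.topologicalClosure_minimal W hgen (isClosed_avgNull U hiso hcont) h1
  rw [mem_avgNull] at hmem
  have h5 : Tendsto (fun k : ℕ => p + orbAvg U k (y - p)) atTop (𝓝 p) := by
    simpa using tendsto_const_nhds.add hmem
  refine h5.congr' ?_
  filter_upwards [eventually_ge_atTop 1] with k hk
  rw [← orbAvg_def, orbAvg_sub U hcont, orbAvg_fixed U hp hk]
  abel

end Crest.Agent.Helper79.S0112
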