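import Mathlib
import Crest.Prelude.Def_ModularData
import Crest.Agent.Helper79.S0112.MeanErgodic

/-!
# S0112, package E: an ergodic state has no fixed vectors besides the vacuum

* `fixed_eq_zero_of_ergodic` (abstract form): `M` a von Neumann algebra, `U` a strongly continuous
  unitary group normalising `M`, `ξ` a cyclic `U`-fixed vector, and the only `U`-invariant
  elements of `M` are scalars.  Then a `U`-fixed vector orthogonal to `ξ` is `0`.
* `fix_eq_vac` (E1) and `window_tendsto` (E2): the same for a `ModularDatum`, with the two facts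
  `wave t vac = vac` (package C1) and strong continuity of the wave group (package A3) as
  hypotheses.

The proof averages `σ_t(b)` over windows, takes a weak limit along an ultrafilter, and applies
ergodicity to the limit.
-/

set_option autoImplicit false
set_option linter.unusedSectionVars false

open Filter Topology MeasureTheory
open scoped InnerProductSpace

namespace Crest.Agent.Helper79.S0112

variable {H : Type*} [NormedAddCommGroup H] [InnerProductSpace ℂ H] [CompleteSpace H]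

/-! ### generic window lemmas -/

theorem norm_window_avg_le {f : ℝ → H} {C : ℝ} (hC : 0 ≤ C) (hf : ∀ t, ‖f t‖ ≤ C) (k : ℕ) :
    ‖((2 * (k : ℝ))⁻¹ : ℝ) • ∫ t in (-(k : ℝ))..(k : ℝ), f t‖ ≤ C := by
  rw [norm_smul]
  have h1 : ‖∫ t in (-(k : ℝ))..(k : ℝ), f t‖ ≤ C * |(k : ℝ) - (-(k : ℝ))| :=
    intervalIntegral.norm_integral_le_of_norm_le_const (fun t _ => hf t)
  rcases Nat.eq_zero_or_pos k with rfl | hk
  · simpa using hC
  · have hk' : (0 : ℝ) < k := by exact_mod_cast hk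
    have h2 : |(k : ℝ) - (-(k : ℝ))| = 2 * k := by
      rw [abs_of_nonneg] <;> linarith
    rw [h2] at h1
    rw [Real.norm_eq_abs, abs_of_pos (by positivity)]
    calc (2 * (k : ℝ))⁻¹ * ‖∫ t in (-(k : ℝ))..(k : ℝ), f t‖
        ≤ (2 * (k : ℝ))⁻¹ * (C * (2 * k)) := by gcongr
      _ = C := by field_simp

theorem window_shift_norm_le {Φ : ℝ → H} (hΦ : Continuous Φ) {C : ℝ} (hC : ∀ t, ‖Φ t‖ ≤ C)
    (k : ℕ) (r : ℝ) :
    ‖((2 * (k : ℝ))⁻¹ : ℝ) • (∫ t in (-(k : ℝ))..(k : ℝ), Φ (t + r)) -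
      ((2 * (k : ℝ))⁻¹ : ℝ) • ∫ t in (-(k : ℝ))..(k : ℝ), Φ t‖ ≤ |r| * C / k := by
  rcases Nat.eq_zero_or_pos k with rfl | hk
  · simp
  have hk' : (0 : ℝ) < k := by exact_mod_cast hk
  have hint : ∀ a b : ℝ, IntervalIntegrable Φ volume a b := fun a b => hΦ.intervalIntegrable a b
  rw [intervalIntegral.integral_comp_add_right Φ r, ← smul_sub,
    intervalIntegral.integral_interval_sub_interval_comm (hint _ _) (hint _ _) (hint _ _),
    norm_smul, Real.norm_eq_abs, abs_of_pos (by positivity)]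
  have h3 : ‖∫ t in (-(k : ℝ) + r)..(-(k : ℝ)), Φ t‖ ≤ C * |(-(k : ℝ)) - (-(k : ℝ) + r)| :=
    intervalIntegral.norm_integral_le_of_norm_le_const (fun t _ => hC t)
  have h4 : ‖∫ t in ((k : ℝ) + r)..(k : ℝ), Φ t‖ ≤ C * |(k : ℝ) - ((k : ℝ) + r)| :=
    intervalIntegral.norm_integral_le_of_norm_le_const (fun t _ => hC t)
  have e3 : |(-(k : ℝ)) - (-(k : ℝ) + r)| = |r| := by
    rw [show (-(k : ℝ)) - (-(k : ℝ) + r) = -r by ring, abs_neg]
  have e4 : |(k : ℝ) - ((k : ℝ) + r)| = |r| := by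
    rw [show (k : ℝ) - ((k : ℝ) + r) = -r by ring, abs_neg]
  rw [e3] at h3
  rw [e4] at h4
  calc (2 * (k : ℝ))⁻¹ * ‖(∫ t in (-(k : ℝ) + r)..(-(k : ℝ)), Φ t) -
        ∫ t in ((k : ℝ) + r)..(k : ℝ), Φ t‖
      ≤ (2 * (k : ℝ))⁻¹ * (C * |r| + C * |r|) := by
        gcongr
        exact (norm_sub_le _ _).trans (add_le_add h3 h4)
    _ = |r| * C / k := by field_simp; ring

/-! ### joint continuity for a strongly continuous isometric family -/

theorem continuous_apply_of_strong (U : ℝ → H →L[ℂ] H) (hiso : ∀ t x, ‖U t x‖ = ‖x‖)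
    (hcont : ∀ x, Continuous fun t => U t x) {w : ℝ → H} (hw : Continuous w) :
    Continuous fun t => U t (w t) := by
  rw [continuous_iff_continuousAt]
  intro t0
  have h1 : Tendsto (fun t => U t (w t - w t0)) (𝓝 t0) (𝓝 0) := by
    rw [tendsto_zero_iff_norm_tendsto_zero]
    simp only [hiso]
    have h : Tendsto (fun t => w t - w t0) (𝓝 t0) (𝓝 (w t0 - w t0)) :=
      (hw.tendsto t0).sub tendsto_const_nhds
    rw [sub_self] at h
    exact tendsto_zero_iff_norm_tendsto_zero.1 h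
  have h2 : Tendsto (fun t => U t (w t0)) (𝓝 t0) (𝓝 (U t0 (w t0))) := (hcont (w t0)).tendsto t0
  have h3 := h1.add h2
  rw [zero_add] at h3
  refine h3.congr (fun t => ?_)
  rw [map_sub, sub_add_cancel]

theorem continuous_conj (U : ℝ → H →L[ℂ] H) (hiso : ∀ t x, ‖U t x‖ = ‖x‖)
    (hcont : ∀ x, Continuous fun t => U t x) (b : H →L[ℂ] H) (z : H) :
    Continuous fun t => U t (b (U (-t) z)) :=
  continuous_apply_of_strong U hiso hcont (b.continuous.comp ((hcont z).comp continuous_neg))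

/-! ### window averages of the conjugates `U t * b * U (-t)` as operators -/

/-- The operator `z ↦ (2k)⁻¹ ∫_{-k}^{k} U t (b (U (-t) z)) dt`. -/
noncomputable def conjAvg (U : ℝ → H →L[ℂ] H) (hiso : ∀ t x, ‖U t x‖ = ‖x‖)
    (hcont : ∀ x, Continuous fun t => U t x) (b : H →L[ℂ] H) (k : ℕ) : H →L[ℂ] H :=
  LinearMap.mkContinuous
    { toFun := fun z => ((2 * (k : ℝ))⁻¹ : ℝ) • ∫ t in (-(k : ℝ))..(k : ℝ), U t (b (U (-t) z))
      map_add' := by
        intro y z
        rw [← smul_add, ← intervalIntegral.integral_add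
          ((continuous_conj U hiso hcont b y).intervalIntegrable _ _)
          ((continuous_conj U hiso hcont b z).intervalIntegrable _ _)]
        simp only [map_add]
      map_smul' := by
        intro c z
        simp only [map_smul, RingHom.id_apply]
        rw [intervalIntegral.integral_smul, smul_comm] }
    ‖b‖
    (by
      intro z
      refine norm_window_avg_le (by positivity) (fun t => ?_) k
      rw [hiso]
      exact (b.le_opNorm _).trans (by rw [hiso]))

theorem conjAvg_apply (U : ℝ → H →L[ℂ] H) (hiso : ∀ t x, ‖U t x‖ = ‖x‖)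
    (hcont : ∀ x, Continuous fun t => U t x) (b : H →L[ℂ] H) (k : ℕ) (z : H) :
    conjAvg U hiso hcont b k z =
      ((2 * (k : ℝ))⁻¹ : ℝ) • ∫ t in (-(k : ℝ))..(k : ℝ), U t (b (U (-t) z)) := rfl

theorem norm_conjAvg_le (U : ℝ → H →L[ℂ] H) (hiso : ∀ t x, ‖U t x‖ = ‖x‖)
    (hcont : ∀ x, Continuous fun t => U t x) (b : H →L[ℂ] H) (k : ℕ) :
    ‖conjAvg U hiso hcont b k‖ ≤ ‖b‖ :=
  LinearMap.mkContinuous_norm_le _ (norm_nonneg _) _

/-- The window average of conjugates of an element of `M` is in `M` (double commutant). -/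
theorem conjAvg_mem (M : VonNeumannAlgebra H) (U : ℝ → H →L[ℂ] H)
    (hiso : ∀ t x, ‖U t x‖ = ‖x‖) (hcont : ∀ x, Continuous fun t => U t x)
    (hflow : ∀ t a, a ∈ M → U t * a * U (-t) ∈ M) {b : H →L[ℂ] H} (hb : b ∈ M) (k : ℕ) :
    conjAvg U hiso hcont b k ∈ M := by
  rw [← VonNeumannAlgebra.commutant_commutant M, VonNeumannAlgebra.mem_commutant_iff]
  intro g hg
  rw [VonNeumannAlgebra.mem_commutant_iff] at hg
  ext z
  simp only [mul_apply_eq_comp, conjAvg_apply]
  rw [ContinuousLinearMap.map_smul_of_tower,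
    ← ContinuousLinearMap.intervalIntegral_comp_comm g
      ((continuous_conj U hiso hcont b z).intervalIntegrable _ _)]
  congr 2
  funext t
  have h := hg (U t * b * U (-t)) (hflow t b hb)
  have h' := congrArg (fun T : H →L[ℂ] H => T z) h
  simp only [mul_apply_eq_comp] at h'
  exact h'.symm

/-- Conjugating a window average by `U r` moves it by `O(1/k)`. -/
theorem conj_conjAvg_sub_norm_le (U : ℝ → H →L[ℂ] H)
    (hadd : ∀ s t, U (s + t) = U s * U t) (hiso : ∀ t x, ‖U t x‖ = ‖x‖)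
    (hcont : ∀ x, Continuous fun t => U t x) (b : H →L[ℂ] H) (k : ℕ) (r : ℝ) (z : H) :
    ‖U r (conjAvg U hiso hcont b k (U (-r) z)) - conjAvg U hiso hcont b k z‖ ≤
      |r| * (‖b‖ * ‖z‖) / k := by
  have hΦ := continuous_conj U hiso hcont b z
  have hC : ∀ t, ‖U t (b (U (-t) z))‖ ≤ ‖b‖ * ‖z‖ := by
    intro t
    rw [hiso]
    exact (b.le_opNorm _).trans (by rw [hiso])
  have key := window_shift_norm_le hΦ hC k r
  have e : U r (conjAvg U hiso hcont b k (U (-r) z)) =
      ((2 * (k : ℝ))⁻¹ : ℝ) • ∫ t in (-(k : ℝ))..(k : ℝ), U (t + r) (b (U (-(t + r)) z)) := by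
    rw [conjAvg_apply, ContinuousLinearMap.map_smul_of_tower,
      ← ContinuousLinearMap.intervalIntegral_comp_comm (U r)
        ((continuous_conj U hiso hcont b (U (-r) z)).intervalIntegrable _ _)]
    congr 2
    funext t
    have e1 : U (t + r) = U r * U t := by rw [add_comm, hadd]
    have e2 : U (-(t + r)) = U (-t) * U (-r) := by rw [neg_add, hadd]
    rw [e1, e2]
    rfl
  rw [e, conjAvg_apply]
  exact key

/-! ### weak limits of bounded sequences of operators along an ultrafilter -/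

theorem exists_weak_ultralimit (ω : Ultrafilter ℕ) (A : ℕ → H →L[ℂ] H) (C : ℝ)
    (hA : ∀ k, ‖A k‖ ≤ C) :
    ∃ L : H →L[ℂ] H, ∀ y z, Tendsto (fun k => ⟪y, A k z⟫_ℂ) ω (𝓝 ⟪y, L z⟫_ℂ) := by
  have hC : 0 ≤ C := (norm_nonneg _).trans (hA 0)
  have hbd : ∀ y z k, ‖⟪y, A k z⟫_ℂ‖ ≤ C * ‖y‖ * ‖z‖ := by
    intro y z k
    calc ‖⟪y, A k z⟫_ℂ‖ ≤ ‖y‖ * ‖A k z‖ := norm_inner_le_norm _ _
      _ ≤ ‖y‖ * (C * ‖z‖) := by
          gcongr
          exact ((A k).le_opNorm z).trans (by gcongr; exact hA k)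
      _ = C * ‖y‖ * ‖z‖ := by ring
  have hex : ∀ y z, ∃ l, Tendsto (fun k => ⟪y, A k z⟫_ℂ) ω (𝓝 l) := by
    intro y z
    have hK : IsCompact (Metric.closedBall (0 : ℂ) (C * ‖y‖ * ‖z‖)) := isCompact_closedBall _ _
    obtain ⟨l, -, hl⟩ := hK.ultrafilter_le_nhds' (ω.map fun k => ⟪y, A k z⟫_ℂ) (by
      rw [Ultrafilter.mem_map]
      refine Filter.univ_mem' fun k => ?_
      simpa using hbd y z k)
    exact ⟨l, hl⟩
  choose b hb using hex
  have hadd_r : ∀ y z₁ z₂, b y (z₁ + z₂) = b y z₁ + b y z₂ := by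
    intro y z₁ z₂
    refine tendsto_nhds_unique (hb y (z₁ + z₂)) ?_
    simpa only [map_add, inner_add_right] using (hb y z₁).add (hb y z₂)
  have hsmul_r : ∀ (c : ℂ) y z, b y (c • z) = (RingHom.id ℂ) c • b y z := by
    intro c y z
    refine tendsto_nhds_unique (hb y (c • z)) ?_
    simpa only [map_smul, inner_smul_right, RingHom.id_apply, smul_eq_mul] using
      (hb y z).const_mul c
  have hadd_l : ∀ y₁ y₂ z, b (y₁ + y₂) z = b y₁ z + b y₂ z := by
    intro y₁ y₂ z
    refine tendsto_nhds_unique (hb (y₁ + y₂) z) ?_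
    simpa only [inner_add_left] using (hb y₁ z).add (hb y₂ z)
  have hsmul_l : ∀ (c : ℂ) y z, b (c • y) z = (starRingEnd ℂ) c • b y z := by
    intro c y z
    refine tendsto_nhds_unique (hb (c • y) z) ?_
    simpa only [inner_smul_left, smul_eq_mul] using (hb y z).const_mul ((starRingEnd ℂ) c)
  have hnorm : ∀ y z, ‖b y z‖ ≤ C * ‖y‖ * ‖z‖ := by
    intro y z
    exact le_of_tendsto' (hb y z).norm (fun k => hbd y z k)
  let B : H →L⋆[ℂ] H →L[ℂ] ℂ :=
    LinearMap.mkContinuous₂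
      (LinearMap.mk₂'ₛₗ (starRingEnd ℂ) (RingHom.id ℂ) b hadd_l hsmul_l hadd_r hsmul_r) C hnorm
  refine ⟨ContinuousLinearMap.adjoint (InnerProductSpace.continuousLinearMapOfBilin B), ?_⟩
  intro y z
  have e : ⟪y, ContinuousLinearMap.adjoint (InnerProductSpace.continuousLinearMapOfBilin B) z⟫_ℂ
      = b y z := by
    rw [ContinuousLinearMap.adjoint_inner_right,
      InnerProductSpace.continuousLinearMapOfBilin_apply]
    rfl
  rw [e]
  exact hb y z

/-! ### the abstract ergodicity statement -/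

/-- **E1, abstract form.**  A `U`-fixed vector orthogonal to the cyclic fixed vector `ξ` is `0`
when the only `U`-invariant elements of `M` are the scalars. -/
theorem fixed_eq_zero_of_ergodic (M : VonNeumannAlgebra H) (U : ℝ → H →L[ℂ] H)
    (hadd : ∀ s t, U (s + t) = U s * U t)
    (hadj : ∀ t, ContinuousLinearMap.adjoint (U t) = U (-t))
    (hiso : ∀ t x, ‖U t x‖ = ‖x‖) (hcont : ∀ x, Continuous fun t => U t x)
    (hflow : ∀ t a, a ∈ M → U t * a * U (-t) ∈ M)
    (herg : ∀ a, a ∈ M → (∀ t, U t * a * U (-t) = a) → ∃ c : ℂ, a = c • (1 : H →L[ℂ] H))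
    (ξ : H) (hξ : ∀ t, U t ξ = ξ)
    (hcyc : Dense (Set.range fun a : M => (a : H →L[ℂ] H) ξ))
    (x : H) (hx : ∀ t, U t x = x) (hxξ : ⟪x, ξ⟫_ℂ = 0) : x = 0 := by
  -- Step 1: `x ⊥ b ξ` for every `b ∈ M`.
  have key : ∀ b : H →L[ℂ] H, b ∈ M → ⟪x, b ξ⟫_ℂ = 0 := by
    intro b hb
    let ω : Ultrafilter ℕ := Ultrafilter.of atTop
    have hω : (ω : Filter ℕ) ≤ atTop := Ultrafilter.of_le atTop
    set A : ℕ → H →L[ℂ] H := fun k => conjAvg U hiso hcont b k with hA
    obtain ⟨L, hL⟩ := exists_weak_ultralimit ω A ‖b‖ (fun k => norm_conjAvg_le U hiso hcont b k)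
    have hAM : ∀ k, A k ∈ M := fun k => conjAvg_mem M U hiso hcont hflow hb k
    -- (a) `L ∈ M`
    have hLM : L ∈ M := by
      rw [← VonNeumannAlgebra.commutant_commutant M, VonNeumannAlgebra.mem_commutant_iff]
      intro g hg
      rw [VonNeumannAlgebra.mem_commutant_iff] at hg
      ext z
      refine ext_inner_left ℂ fun y => ?_
      simp only [mul_apply_eq_comp]
      have h1 : Tendsto (fun k => ⟪y, A k (g z)⟫_ℂ) ω (𝓝 ⟪y, g (L z)⟫_ℂ) := by
        have h2 := hL (ContinuousLinearMap.adjoint g y) z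
        rw [ContinuousLinearMap.adjoint_inner_left] at h2
        refine h2.congr (fun k => ?_)
        rw [ContinuousLinearMap.adjoint_inner_left]
        have h3 := congrArg (fun T : H →L[ℂ] H => T z) (hg (A k) (hAM k))
        simp only [mul_apply_eq_comp] at h3
        rw [h3]
      exact tendsto_nhds_unique h1 (hL y (g z))
    -- (b) `L` is invariant under conjugation
    have hLinv : ∀ r, U r * L * U (-r) = L := by
      intro r
      ext z
      refine ext_inner_left ℂ fun y => ?_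
      simp only [mul_apply_eq_comp]
      have h1 : Tendsto (fun k => ⟪y, U r (A k (U (-r) z))⟫_ℂ) ω
          (𝓝 ⟪y, U r (L (U (-r) z))⟫_ℂ) := by
        have e : ∀ w w' : H, ⟪U (-r) w, w'⟫_ℂ = ⟪w, U r w'⟫_ℂ := fun w w' => by
          rw [← hadj r, ContinuousLinearMap.adjoint_inner_left]
        have h2 := hL (U (-r) y) (U (-r) z)
        simp only [e] at h2
        exact h2
      have h2 : Tendsto (fun k => ⟪y, U r (A k (U (-r) z))⟫_ℂ - ⟪y, A k z⟫_ℂ) ω (𝓝 0) := by
        have h3 : Tendsto (fun k : ℕ => ‖y‖ * (|r| * (‖b‖ * ‖z‖) / k)) atTop (𝓝 0) := by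
          simpa using (tendsto_const_div_atTop_nhds_zero_nat (|r| * (‖b‖ * ‖z‖))).const_mul ‖y‖
        refine squeeze_zero_norm (fun k => ?_) (h3.mono_left hω)
        rw [← inner_sub_right]
        exact (norm_inner_le_norm _ _).trans
          (mul_le_mul_of_nonneg_left (conj_conjAvg_sub_norm_le U hadd hiso hcont b k r z)
            (norm_nonneg _))
      have h4 := h1.sub (hL y z)
      have h5 := tendsto_nhds_unique h4 h2
      exact sub_eq_zero.1 h5
    obtain ⟨c, hc⟩ := herg L hLM hLinv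
    -- (c) `⟪x, A k ξ⟫ = ⟪x, b ξ⟫` for `k ≥ 1`
    have hconst : ∀ k : ℕ, 1 ≤ k → ⟪x, A k ξ⟫_ℂ = ⟪x, b ξ⟫_ℂ := by
      intro k hk
      have hk' : (0 : ℝ) < k := by exact_mod_cast hk
      have e1 : A k ξ = ((2 * (k : ℝ))⁻¹ : ℝ) • ∫ t in (-(k : ℝ))..(k : ℝ), U t (b ξ) := by
        rw [hA, conjAvg_apply]
        simp only [hξ]
      have hint : IntervalIntegrable (fun t => U t (b ξ)) volume (-(k : ℝ)) (k : ℝ) :=
        (hcont (b ξ)).intervalIntegrable _ _
      have e2 : ⟪x, ∫ t in (-(k : ℝ))..(k : ℝ), U t (b ξ)⟫_ℂ =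
          ∫ t in (-(k : ℝ))..(k : ℝ), ⟪x, U t (b ξ)⟫_ℂ := by
        have := ContinuousLinearMap.intervalIntegral_comp_comm (innerSL ℂ x) hint
        simpa only [innerSL_apply_apply] using this.symm
      have e3 : ∀ t, ⟪x, U t (b ξ)⟫_ℂ = ⟪x, b ξ⟫_ℂ := by
        intro t
        rw [← ContinuousLinearMap.adjoint_inner_left, hadj, hx]
      rw [e1, ← Complex.coe_smul, inner_smul_right, e2]
      simp only [e3, intervalIntegral.integral_const]
      have : (2 * (k : ℝ))⁻¹ * ((k : ℝ) - (-(k : ℝ))) = 1 := by field_simp; ring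
      rw [Complex.real_smul, ← mul_assoc, ← Complex.ofReal_mul, this, Complex.ofReal_one, one_mul]
    have h6 : Tendsto (fun k => ⟪x, A k ξ⟫_ℂ) ω (𝓝 ⟪x, b ξ⟫_ℂ) := by
      refine tendsto_const_nhds.congr' ?_
      have : ∀ᶠ k in (ω : Filter ℕ), 1 ≤ k := hω (eventually_ge_atTop 1)
      filter_upwards [this] with k hk
      exact (hconst k hk).symm
    have h7 := tendsto_nhds_unique h6 (hL x ξ)
    rw [h7, hc]
    simp [hxξ]
  -- Step 2: density.
  have hclosed : IsClosed {v : H | ⟪x, v⟫_ℂ = 0} :=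
    isClosed_eq (continuous_const.inner continuous_id) continuous_const
  have hsub : Set.range (fun a : M => (a : H →L[ℂ] H) ξ) ⊆ {v : H | ⟪x, v⟫_ℂ = 0} := by
    rintro _ ⟨a, rfl⟩
    exact key a a.2
  have hall : x ∈ {v : H | ⟪x, v⟫_ℂ = 0} := by
    have := closure_minimal hsub hclosed
    rw [hcyc.closure_eq] at this
    exact this (Set.mem_univ x)
  exact inner_self_eq_zero.1 hall

end Crest.Agent.Helper79.S0112
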