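import Mathlib
import Crest.Prelude.Def_ModularData
import Crest.Agent.Helper79.S0112.MeanErgodic
import Crest.Agent.Helper79.S0112.Fix

/-!
# S0112, package E for a `ModularDatum`

* wave-group laws read off the calculus (`wave_zero`, `wave_add`, `wave_adjoint`, `wave_norm`);
* `fix_eq_vac` (E1): for an ergodic datum every vector fixed by the wave group is a multiple of
  the vacuum;
* `window_tendsto` (E2): the window averages of any orbit tend in norm to `⟪vac, z⟫ • vac`.

`hvac` (package C1: `wave t vac = vac`) and `hcont` (package A3: strong continuity of the wave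
group) are hypotheses.
-/

set_option autoImplicit false
set_option linter.unusedSectionVars false

open Filter Topology MeasureTheory
open scoped InnerProductSpace
open Crest.OpAlg

namespace Crest.Agent.Helper79.S0112

variable {H : Type*} [NormedAddCommGroup H] [InnerProductSpace ℂ H] [CompleteSpace H]

theorem character_apply (t u : ℝ) :
    LineCalculus.character t u = Complex.exp (Complex.I * ((t * u : ℝ) : ℂ)) := rfl

theorem character_zero : LineCalculus.character 0 = 1 := by
  ext u
  simp [character_apply]

theorem character_add (s t : ℝ) :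
    LineCalculus.character (s + t) = LineCalculus.character s * LineCalculus.character t := by
  ext u
  simp only [character_apply, BoundedContinuousFunction.coe_mul, Pi.mul_apply, ← Complex.exp_add]
  congr 1
  push_cast
  ring

theorem star_character (t : ℝ) :
    star (LineCalculus.character t) = LineCalculus.character (-t) := by
  ext u
  simp only [character_apply, BoundedContinuousFunction.star_apply]
  rw [Complex.star_def, ← Complex.exp_conj]
  congr 1
  simp

theorem wave_zero (D : LineCalculus H) : D.wave 0 = 1 := by
  rw [LineCalculus.wave, character_zero, map_one]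

theorem wave_add (D : LineCalculus H) (s t : ℝ) : D.wave (s + t) = D.wave s * D.wave t := by
  rw [LineCalculus.wave, character_add, map_mul]; rfl

theorem wave_adjoint (D : LineCalculus H) (t : ℝ) :
    ContinuousLinearMap.adjoint (D.wave t) = D.wave (-t) := by
  rw [← ContinuousLinearMap.star_eq_adjoint, LineCalculus.wave, ← map_star, star_character]; rfl

theorem wave_norm (D : LineCalculus H) (t : ℝ) (x : H) : ‖D.wave t x‖ = ‖x‖ := by
  have h : ContinuousLinearMap.adjoint (D.wave t) ∘L D.wave t = 1 := by
    rw [wave_adjoint]
    change D.wave (-t) * D.wave t = 1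
    rw [← wave_add, neg_add_cancel, wave_zero]
  exact (ContinuousLinearMap.norm_map_iff_adjoint_comp_self (D.wave t)).2 h x

/-- **E1.**  For an ergodic modular datum, a vector fixed by the wave group is a multiple of the
vacuum. -/
theorem fix_eq_vac (S : ModularDatum H) (herg : S.Ergodic)
    (hvac : ∀ t, S.D.wave t S.vac = S.vac) (hcont : ∀ x, Continuous fun t => S.D.wave t x)
    (x : H) (hx : ∀ t, S.D.wave t x = x) : x = ⟪S.vac, x⟫_ℂ • S.vac := by
  have hξξ : ⟪S.vac, S.vac⟫_ℂ = 1 := by
    rw [inner_self_eq_norm_sq_to_K, S.norm_vac]; simp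
  have h0 : x - ⟪S.vac, x⟫_ℂ • S.vac = 0 := by
    refine fixed_eq_zero_of_ergodic S.M S.D.wave (wave_add S.D) (wave_adjoint S.D) (wave_norm S.D)
      hcont S.flow_mem herg S.vac hvac S.cyclic _ ?_ ?_
    · intro t
      rw [map_sub, map_smul, hx, hvac]
    · rw [inner_sub_left, inner_smul_left, inner_conj_symm, hξξ, mul_one, sub_self]
  exact sub_eq_zero.1 h0

/-- **E2.**  For an ergodic modular datum the window averages of every orbit of the wave group
tend in norm to the vacuum component. -/
theorem window_tendsto (S : ModularDatum H) (herg : S.Ergodic)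
    (hvac : ∀ t, S.D.wave t S.vac = S.vac) (hcont : ∀ x, Continuous fun t => S.D.wave t x)
    (z : H) :
    Tendsto (fun k : ℕ => ((2 * (k : ℝ))⁻¹ : ℝ) • ∫ t in (-(k : ℝ))..(k : ℝ), S.D.wave t z)
      atTop (𝓝 (⟪S.vac, z⟫_ℂ • S.vac)) := by
  have hξξ : ⟪S.vac, S.vac⟫_ℂ = 1 := by
    rw [inner_self_eq_norm_sq_to_K, S.norm_vac]; simp
  refine mean_ergodic S.D.wave (wave_add S.D) (wave_norm S.D) hcont z _ ?_ ?_
  · intro t
    rw [map_smul, hvac]
  · intro w hw
    rw [fix_eq_vac S herg hvac hcont w hw, inner_smul_left, inner_sub_right, inner_smul_right,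
      hξξ, mul_one, sub_self, mul_zero]

end Crest.Agent.Helper79.S0112
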