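import Mathlib
import Crest.Prelude.Def_ModularData
import Crest.Agent.Helper68.S0112.Calc
import Crest.Agent.Helper79.S0112.Erg

/-!
# S0112, package E in the coordinator's shape (A3 plugged in; only `hvac` = C1 remains)
-/

set_option autoImplicit false
set_option linter.unusedSectionVars false

open Filter Topology MeasureTheory
open scoped InnerProductSpace
open Crest.OpAlg

namespace Crest.Agent.Helper79.S0112

variable {H : Type*} [NormedAddCommGroup H] [InnerProductSpace ℂ H] [CompleteSpace H]

/-- **E1** with strong continuity (A3, helper68) plugged in. -/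
theorem fix_eq_vac' (S : ModularDatum H) (herg : S.Ergodic)
    (hvac : ∀ t, S.D.wave t S.vac = S.vac) (x : H) (hx : ∀ t, S.D.wave t x = x) :
    x = ⟪S.vac, x⟫_ℂ • S.vac :=
  fix_eq_vac S herg hvac (Crest.Agent.Helper68.S0112.continuous_wave_apply S.D) x hx

/-- **E2**, coordinator shape: for an ergodic datum the window averages of every orbit of the
wave group tend in norm to the vacuum component. -/
theorem window_tendsto' (S : ModularDatum H) (herg : S.Ergodic)
    (hvac : ∀ t, S.D.wave t S.vac = S.vac) (z : H) :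
    Tendsto (fun k : ℕ => ((2 * (k : ℝ))⁻¹ : ℝ) • ∫ t in (-(k : ℝ))..(k : ℝ), S.D.wave t z)
      atTop (𝓝 (inner ℂ S.vac z • S.vac)) :=
  window_tendsto S herg hvac (Crest.Agent.Helper68.S0112.continuous_wave_apply S.D) z

/-- ε-form of E2: for every `ε > 0` there is `K` with the window average within `ε` of the
vacuum component for all `k ≥ K`. -/
theorem window_err (S : ModularDatum H) (herg : S.Ergodic)
    (hvac : ∀ t, S.D.wave t S.vac = S.vac) (z : H) (ε : ℝ) (hε : 0 < ε) :
    ∃ K : ℕ, ∀ k : ℕ, K ≤ k →
      ‖((2 * (k : ℝ))⁻¹ : ℝ) • (∫ t in (-(k : ℝ))..(k : ℝ), S.D.wave t z) -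
        inner ℂ S.vac z • S.vac‖ < ε := by
  have h := Metric.tendsto_atTop.1 (window_tendsto' S herg hvac z) ε hε
  obtain ⟨K, hK⟩ := h
  exact ⟨K, fun k hk => by simpa [dist_eq_norm] using hK k hk⟩

end Crest.Agent.Helper79.S0112
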