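import Mathlib
import Crest.Prelude.Def_ModularData
import Crest.Agent.Helper21.S0112.Tomita
import Crest.Agent.Helper79.S0112.E2

/-!
# S0112, package E, hypothesis-free (A3 from Helper68 and C1 from Helper21 plugged in)
-/

set_option autoImplicit false
set_option linter.unusedSectionVars false

open Filter Topology MeasureTheory
open scoped InnerProductSpace
open Crest.OpAlg

namespace Crest.Agent.Helper79.S0112

variable {H : Type*} [NormedAddCommGroup H] [InnerProductSpace ℂ H] [CompleteSpace H]

/-- **E1**, hypothesis-free: for an ergodic datum a vector fixed by the wave group is a multiple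
of the vacuum. -/
theorem fix_eq_vac_final (S : ModularDatum H) (herg : S.Ergodic) (x : H)
    (hx : ∀ t, S.D.wave t x = x) : x = ⟪S.vac, x⟫_ℂ • S.vac :=
  fix_eq_vac' S herg (Crest.Agent.Helper21.S0112.wave_vac S) x hx

/-- **E2**, hypothesis-free: window averages of every orbit tend to the vacuum component. -/
theorem window_tendsto_final (S : ModularDatum H) (herg : S.Ergodic) (z : H) :
    Tendsto (fun k : ℕ => ((2 * (k : ℝ))⁻¹ : ℝ) • ∫ t in (-(k : ℝ))..(k : ℝ), S.D.wave t z)
      atTop (𝓝 (inner ℂ S.vac z • S.vac)) :=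
  window_tendsto' S herg (Crest.Agent.Helper21.S0112.wave_vac S) z

/-- ε-form of E2, hypothesis-free. -/
theorem window_err_final (S : ModularDatum H) (herg : S.Ergodic) (z : H) (ε : ℝ) (hε : 0 < ε) :
    ∃ K : ℕ, ∀ k : ℕ, K ≤ k →
      ‖((2 * (k : ℝ))⁻¹ : ℝ) • (∫ t in (-(k : ℝ))..(k : ℝ), S.D.wave t z) -
        inner ℂ S.vac z • S.vac‖ < ε :=
  window_err S herg (Crest.Agent.Helper21.S0112.wave_vac S) z ε hε

end Crest.Agent.Helper79.S0112
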