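import Crest.Agent.Helper72.S0112.Pkg
import Crest.Agent.Helper4.S0112.Kernel
import Crest.Agent.Helper97.S0112.Riemann
import Crest.Agent.Helper97.S0112.RiemannWindow
import Crest.Agent.Helper62.S0112.Phases
import Crest.Agent.Helper58.S0112.Resolvent
import Crest.Agent.Helper98.S0112.Frame
import Crest.Agent.Helper63.S0112.Fourier
import Crest.Agent.Helper77.S0112.Smooth
import Crest.Agent.Helper2.S0112.Kms
import Crest.Agent.Helper79.S0112.Erg

/-!
# S0112: instantiation of the coordinator's interface (`Helper72/S0112/Pkg.lean`)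

* `kernelProp` : package B (Helper4 `exists_kernel_bcf`);
* `gen H` : the Mathlib-only packages F (Helper97), G (Helper62), H (Helper58), I1 (Helper98 +
  Helper97 `windowMean_eq`);
* `pkg S herg hvac` : A3 (Helper63), D (Helper77), C2/C4 (Helper2), E2 (Helper79), with
  `hvac` (C1) as a hypothesis.
-/

set_option autoImplicit false

namespace Crest.Agent.Helper79.S0112

open Crest.OpAlg Filter MeasureTheory Set
open scoped Topology

variable {H : Type*} [NormedAddCommGroup H] [InnerProductSpace ℂ H] [CompleteSpace H]

/-- Package B in the coordinator's shape. -/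
theorem kernelProp : ∃ C₀ : ℝ, 0 ≤ C₀ ∧ Crest.Agent.Helper72.S0112.KernelProp C₀ :=
  Crest.Agent.Helper4.S0112.exists_kernel_bcf

/-- The Mathlib-only packages F, G, H, I1 at the Hilbert space `H`. -/
theorem gen (H : Type*) [NormedAddCommGroup H] [InnerProductSpace ℂ H] [CompleteSpace H] :
    Crest.Agent.Helper72.S0112.Gen H where
  riemannH := fun Ψ hΨ k hk => Crest.Agent.Helper97.S0112.riemann_window_tendsto Ψ hΨ k hk
  riemannR := fun Ψ hΨ k hk => by
    simpa only [smul_eq_mul] using
      Crest.Agent.Helper97.S0112.riemann_window_tendsto Ψ hΨ k hk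
  moment2 := fun N x T v => Crest.Agent.Helper62.S0112.sum_norm_sq_psum x T v
  moment4 := fun N x v => Crest.Agent.Helper62.S0112.sum_norm_sq_star_psum_le x v
  trunc := fun v R hR => Crest.Agent.Helper58.S0112.exists_truncation_min v R hR
  ultra := fun ω f _hf B h0 hB c hc h => by
    have h1 := Crest.Agent.Helper98.S0112.eventually_windowMean_gt ω f B h0 hB c hc h
    simpa only [Crest.Agent.Helper97.S0112.windowMean_eq] using h1

/-- The facts about the modular datum (A3, C2, C4, D, E2), with C1 (`hvac`) as a hypothesis. -/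
theorem pkg (S : ModularDatum H) (herg : S.Ergodic) (hvac : ∀ t, S.D.wave t S.vac = S.vac) :
    Crest.Agent.Helper72.S0112.Pkg S where
  wave_vac := hvac
  cont := fun x => Crest.Agent.Helper63.S0112.continuous_wave_apply S.D x
  smooth := fun f hf F hF α β hsupp a ha => by
    obtain ⟨a', ha', h1, h2, h3⟩ :=
      Crest.Agent.Helper77.S0112.exists_smooth S hvac f hf F hF α β hsupp a ha
    exact ⟨a', ha', h1, h2, h3⟩
  norm_star := fun a ha α β h => Crest.Agent.Helper2.S0112.norm_star_vac_le S a ha α β h
  kms := fun a ha α β h => Crest.Agent.Helper2.S0112.kms_vector S a ha α β h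
  ergodic := fun z =>
    window_tendsto S herg hvac (Crest.Agent.Helper63.S0112.continuous_wave_apply S.D) z

/-- `Pkg S` with C1 discharged (Helper2 `wave_vac`): needs only ergodicity. -/
theorem pkg' (S : ModularDatum H) (herg : S.Ergodic) : Crest.Agent.Helper72.S0112.Pkg S :=
  pkg S herg (fun t => Crest.Agent.Helper2.S0112.wave_vac S t)

end Crest.Agent.Helper79.S0112
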